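import Vale.Agent.P159.H950.B3

/-!
Regions with an arbitrary set of free spins, and the Cauchy-Schwarz inequality for the two sides
of a mirror line.
-/

set_option linter.all false
set_option autoImplicit false

open MeasureTheory Filter Topology
open scoped BigOperators

namespace Vale.Agent.P159.T1.H931

open Vale.Agent.P159 Vale.Agent.P159.UJ Vale.Agent.P159.H950

/-- characters of the region `R` when the spins of `I` are free and all others are `0` -/
noncomputable def chiI (R : Finset (ℤ × ℤ)) (I : Set (ℤ × ℤ)) (e : KR R) : Chr Ginf :=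
  (grad (hu e.1 e.2) (hv e.1 e.2)).comp (proj I) (proj_cont _)

/-- partition function at the real twist `y` -/
noncomputable def zI (b : ℝ) (R : Finset (ℤ × ℤ)) (I : Set (ℤ × ℤ)) (y : Fld) : ℝ :=
  Zr muInf (fun _ : KR R => b / 2) (chiI R I) (twR R y)

/-- quadratic form -/
noncomputable def qI (b : ℝ) (R : Finset (ℤ × ℤ)) (I : Set (ℤ × ℤ)) (y : Fld) : ℝ :=
  Qform muInf (fun _ : KR R => b / 2) (chiI R I) (twR R y)

theorem chiI_intR (R : Finset (ℤ × ℤ)) : chiI R (intR R) = chiR R := rfl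

theorem zI_pos (b : ℝ) (R : Finset (ℤ × ℤ)) (I : Set (ℤ × ℤ)) (y : Fld) : 0 < zI b R I y :=
  Zr_pos _ _ _ _

theorem zI_le {b : ℝ} (hb : 0 ≤ b) (R : Finset (ℤ × ℤ)) (I : Set (ℤ × ℤ)) (y : Fld) :
    zI b R I y ≤ zI b R I 0 := by
  have h := Zr_le muInf (fun _ : KR R => b / 2) (chiI R I) G_div2 (half_nonneg' hb R) (twR R y)
  exact h

/-- energy of one half-bond -/
noncomputable def bE (b : ℝ) (I : Set (ℤ × ℤ)) (y : Fld) (x : Ginf) (c : ℤ × ℤ) (t : HT) : ℝ :=
  b / 2 * (cosT (proj I x (hu c t) - proj I x (hv c t)) * Real.cos (y c t.1) -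
    sinT (proj I x (hu c t) - proj I x (hv c t)) * Real.sin (y c t.1))

/-- energy of a region -/
noncomputable def eI (b : ℝ) (R : Finset (ℤ × ℤ)) (I : Set (ℤ × ℤ)) (y : Fld) (x : Ginf) : ℝ :=
  ∑ c ∈ R, ∑ t : HT, bE b I y x c t

theorem sum_KR' (R : Finset (ℤ × ℤ)) (F : ℤ × ℤ → HT → ℝ) :
    ∑ e : KR R, F e.1 e.2 = ∑ c ∈ R, ∑ t : HT, F c t := by
  rw [Fintype.sum_prod_type, ← Finset.sum_coe_sort R (fun c => ∑ t : HT, F c t)]

theorem zI_eq (b : ℝ) (R : Finset (ℤ × ℤ)) (I : Set (ℤ × ℤ)) (y : Fld) :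
    zI b R I y = ∫ x, Real.exp (eI b R I y x) ∂muInf := by
  unfold zI Zr eI
  congr 1
  ext x
  rw [← sum_KR' R (fun c t => bE b I y x c t)]
  rfl

theorem bE_cont (b : ℝ) (I : Set (ℤ × ℤ)) (y : Fld) (c : ℤ × ℤ) (t : HT) :
    Continuous (fun x : Ginf => bE b I y x c t) := by
  have h1 : Continuous (fun x : Ginf => proj I x (hu c t) - proj I x (hv c t)) :=
    ((continuous_apply (hu c t)).comp (proj_cont I)).sub
      ((continuous_apply (hv c t)).comp (proj_cont I))
  exact continuous_const.mul (((cont_cos.comp h1).mul continuous_const).sub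
    ((cont_sin.comp h1).mul continuous_const))

theorem eI_cont (b : ℝ) (R : Finset (ℤ × ℤ)) (I : Set (ℤ × ℤ)) (y : Fld) :
    Continuous (fun x : Ginf => eI b R I y x) :=
  continuous_finsetSum _ fun c _ => continuous_finsetSum _ fun t _ => bE_cont b I y c t

theorem eI_union (b : ℝ) {A B : Finset (ℤ × ℤ)} (h : Disjoint A B) (I : Set (ℤ × ℤ)) (y : Fld)
    (x : Ginf) : eI b (A ∪ B) I y x = eI b A I y x + eI b B I y x := by
  unfold eI
  rw [Finset.sum_union h]

theorem bE_congr {b : ℝ} {I I' : Set (ℤ × ℤ)} {y y' : Fld} {x x' : Ginf} {c : ℤ × ℤ} {t : HT}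
    (hy : y c t.1 = y' c t.1)
    (h1 : proj I x (hu c t) = proj I' x' (hu c t))
    (h2 : proj I x (hv c t) = proj I' x' (hv c t)) :
    bE b I y x c t = bE b I' y' x' c t := by
  unfold bE
  rw [hy, h1, h2]

theorem proj_congr {I I' : Set (ℤ × ℤ)} {x x' : Ginf} {v : ℤ × ℤ} (h : v ∈ I ↔ v ∈ I')
    (hx : x v = x' v) : proj I x v = proj I' x' v := by
  by_cases h1 : v ∈ I
  · rw [proj_of_mem h1, proj_of_mem (h.1 h1), hx]
  · rw [proj_of_notMem h1, proj_of_notMem fun h2 => h1 (h.2 h2)]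

/-! ### Cauchy-Schwarz -/

section CS

variable {G : Type*} [AddCommGroup G] [TopologicalSpace G] [IsTopologicalAddGroup G]
  [CompactSpace G] [SecondCountableTopology G] [MeasurableSpace G] [BorelSpace G]
  (μ : Measure G) [μ.IsAddHaarMeasure] [IsProbabilityMeasure μ]

/-- Cauchy-Schwarz for the reflection positive form -/
theorem rp_cs (P : G → G) (hP : Continuous P) (R : G → G) (hR : Continuous R)
    (hRm : ∀ F : G → ℝ, Continuous F → ∫ x, F (R x) ∂μ = ∫ x, F x ∂μ)
    (hRR : ∀ x, R (R x) = x)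
    {g h : G → ℝ} (hg : Continuous g) (hh : Continuous h)
    (h1 : ∀ x z, g (R (x + P z)) = g (R x)) (h1' : ∀ x z, h (R (x + P z)) = h (R x))
    (h2 : ∀ x, ∃ w, ∀ z, g (R x + P z) = g (x + P (w + z)) ∧
      h (R x + P z) = h (x + P (w + z)))
    (h3 : ∀ x y z, g (x + P y + P z) = g (x + P (y + z)))
    (h3' : ∀ x y z, h (x + P y + P z) = h (x + P (y + z))) :
    (∫ x, g x * h (R x) ∂μ) ^ 2 ≤
      (∫ x, g x * g (R x) ∂μ) * (∫ x, h x * h (R x) ∂μ) := by
  have hgR : Continuous (fun x => g (R x)) := hg.comp hR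
  have hhR : Continuous (fun x => h (R x)) := hh.comp hR
  obtain ⟨a, ha⟩ : ∃ a, a = ∫ x, g x * g (R x) ∂μ := ⟨_, rfl⟩
  obtain ⟨b, hb⟩ : ∃ b, b = ∫ x, g x * h (R x) ∂μ := ⟨_, rfl⟩
  obtain ⟨c, hc⟩ : ∃ c, c = ∫ x, h x * h (R x) ∂μ := ⟨_, rfl⟩
  have hb' : ∫ x, h x * g (R x) ∂μ = b := by
    rw [hb, ← hRm (fun x => g x * h (R x)) (hg.mul hhR)]
    congr 1
    ext x
    rw [hRR, mul_comm]
  have key : ∀ l : ℝ, 0 ≤ c * (l * l) + (2 * b) * l + a := by
    intro l
    have h0 := rp_pos μ P hP R hR hRm hRR (g := fun x => g x + l * h x)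
      (hg.add (continuous_const.mul hh))
      (fun x z => by rw [h1, h1'])
      (fun x => by
        obtain ⟨w, hw⟩ := h2 x
        exact ⟨w, fun z => by rw [(hw z).1, (hw z).2]⟩)
      (fun x y z => by rw [h3, h3'])
    have e : ∀ x, (g x + l * h x) * (g (R x) + l * h (R x)) =
        g x * g (R x) + l * (g x * h (R x)) + l * (h x * g (R x)) +
          l * l * (h x * h (R x)) := fun x => by ring
    simp only [e] at h0
    have i1 : Integrable (fun x => g x * g (R x)) μ := cint (hg.mul hgR)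
    have i2 : Integrable (fun x => g x * h (R x)) μ := cint (hg.mul hhR)
    have i3 : Integrable (fun x => h x * g (R x)) μ := cint (hh.mul hgR)
    have i4 : Integrable (fun x => h x * h (R x)) μ := cint (hh.mul hhR)
    have j2 : Integrable (fun x => l * (g x * h (R x))) μ := i2.const_mul l
    have j3 : Integrable (fun x => l * (h x * g (R x))) μ := i3.const_mul l
    have j4 : Integrable (fun x => l * l * (h x * h (R x))) μ := i4.const_mul (l * l)
    have k1 : Integrable (fun x => g x * g (R x) + l * (g x * h (R x))) μ := i1.add j2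
    have k2 : Integrable (fun x => g x * g (R x) + l * (g x * h (R x)) +
      l * (h x * g (R x))) μ := k1.add j3
    rw [integral_add k2 j4, integral_add k1 j3,
      integral_add i1 j2, integral_const_mul, integral_const_mul,
      integral_const_mul, hb', ← ha, ← hb, ← hc] at h0
    linarith
  have hd := discrim_le_zero key
  unfold discrim at hd
  rw [← ha, ← hb, ← hc]
  nlinarith only [hd]

end CS

/-- a function of the spins with `lam ≤ 0` -/
def IsL (r : Refl) (g : Ginf → ℝ) : Prop :=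
  ∀ x x' : Ginf, (∀ v, r.lam v ≤ 0 → x v = x' v) → g x = g x'

/-- Cauchy-Schwarz for functions of the left spins -/
theorem cs_left (r : Refl) (hl : ∀ v, r.lam (r.s v) = - r.lam v) {g h : Ginf → ℝ}
    (hg : Continuous g) (hh : Continuous h) (Lg : IsL r g) (Lh : IsL r h) :
    (∫ x, g x * h (relabel r.s x) ∂muInf) ^ 2 ≤
      (∫ x, g x * g (relabel r.s x) ∂muInf) * (∫ x, h x * h (relabel r.s x) ∂muInf) := by
  have hinj : Function.Injective r.s := by
    intro u v huv
    rw [← r.s_s u, huv, r.s_s]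
  set P : Ginf →+ Ginf := proj {v | r.lam v < 0} with hP
  have hP0 : ∀ (z : Ginf) (v : ℤ × ℤ), 0 ≤ r.lam v → P z v = 0 := by
    intro z v hv'
    exact proj_of_notMem (by simp only [Set.mem_setOf_eq, not_lt]; exact hv') z
  have hP1 : ∀ (z : Ginf) (v : ℤ × ℤ), r.lam v < 0 → P z v = z v := by
    intro z v hv'
    exact proj_of_mem (by exact hv') z
  have a1 : ∀ f : Ginf → ℝ, IsL r f → ∀ x z, f (relabel r.s (x + P z)) = f (relabel r.s x) := by
    intro f hf x z
    refine hf _ _ fun v hv' => ?_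
    show (x + P z) (r.s v) = x (r.s v)
    rw [Pi.add_apply, hP0 z (r.s v) (by rw [hl]; linarith), add_zero]
  have a2 : ∀ f : Ginf → ℝ, IsL r f → ∀ x z, f (relabel r.s x + P z) =
      f (x + P (relabel r.s x - x + z)) := by
    intro f hf x z
    refine hf _ _ fun v hv' => ?_
    rcases hv'.lt_or_eq with h3 | h3
    · rw [Pi.add_apply, Pi.add_apply, hP1 _ v h3, hP1 _ v h3, Pi.add_apply, Pi.sub_apply]
      abel
    · rw [Pi.add_apply, Pi.add_apply, hP0 _ v h3.ge, hP0 _ v h3.ge]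
      show x (r.s v) + 0 = x v + 0
      rw [r.lam_s v h3]
  refine rp_cs muInf (fun z => P z) (proj_cont _) (fun x => relabel r.s x) (relabel_cont _)
    (fun F hF => integral_relabel r.s hinj muInf muInf hF)
    (fun x => by funext v; show x (r.s (r.s v)) = x v; rw [r.s_s]) hg hh
    (a1 g Lg) (a1 h Lh)
    (fun x => ⟨relabel r.s x - x, fun z => ⟨a2 g Lg x z, a2 h Lh x z⟩⟩) ?_ ?_
  · intro x y z
    simp only [map_add, add_assoc]
  · intro x y z
    simp only [map_add, add_assoc]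

/-- Left cells -/
def LC (r : Refl) (A : Finset (ℤ × ℤ)) : Prop := ∀ c ∈ A, ∀ t, r.left c t

/-- Right cells -/
def RC (r : Refl) (A : Finset (ℤ × ℤ)) : Prop := ∀ c ∈ A, ∀ t, ¬ r.left c t

theorem LC.isL {r : Refl} {A : Finset (ℤ × ℤ)} (hA : LC r A) (b : ℝ) (I : Set (ℤ × ℤ)) (y : Fld) :
    IsL r (fun x => Real.exp (eI b A I y x)) := by
  intro x x' h
  show Real.exp (eI b A I y x) = Real.exp (eI b A I y x')
  congr 1
  refine Finset.sum_congr rfl fun c hc => Finset.sum_congr rfl fun t _ => ?_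
  have h1 := r.left1 c t (hA c hc t)
  exact bE_congr rfl (proj_congr Iff.rfl (h _ h1.1)) (proj_congr Iff.rfl (h _ h1.2))

/-- the energy of the mirror image of a half-bond -/
theorem bE_refl (r : Refl) (b : ℝ) {I I' : Set (ℤ × ℤ)} (y : Fld) (x : Ginf) (c : ℤ × ℤ) (t : HT)
    (h1 : hu c t ∈ I ↔ r.s (hu c t) ∈ I') (h2 : hv c t ∈ I ↔ r.s (hv c t) ∈ I') :
    bE b I y (relabel r.s x) c t = bE b I' (r.act y) x (r.cm c) (r.tm t) := by
  have hp : ∀ v, (v ∈ I ↔ r.s v ∈ I') → proj I (relabel r.s x) v = proj I' x (r.s v) := by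
    intro v hv'
    by_cases h : v ∈ I
    · rw [proj_of_mem h, proj_of_mem (hv'.1 h)]; rfl
    · rw [proj_of_notMem h, proj_of_notMem fun h3 => h (hv'.2 h3)]
  have hact : r.act y (r.cm c) (r.tm t).1 = r.sg t.1 * y c t.1 := by
    unfold Refl.act
    rw [r.tm_dm, r.cm_cm, r.dm_dm, r.sg_dm]
  unfold bE
  rw [hp _ h1, hp _ h2, hact]
  rcases r.ends c t with ⟨h0, e1, e2⟩ | ⟨h0, e1, e2⟩
  · rw [e1, e2, h0, one_mul]
  · rw [e1, e2, h0, neg_one_mul, Real.cos_neg, Real.sin_neg]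
    have h3 : proj I' x (r.s (hv c t)) - proj I' x (r.s (hu c t)) =
        -(proj I' x (r.s (hu c t)) - proj I' x (r.s (hv c t))) := by abel
    rw [h3, cosT_neg, sinT_neg]
    ring

theorem eI_refl (r : Refl) (b : ℝ) {I I' : Set (ℤ × ℤ)} (y : Fld) (x : Ginf)
    (A : Finset (ℤ × ℤ))
    (h : ∀ c ∈ A, ∀ t, (hu c t ∈ I ↔ r.s (hu c t) ∈ I') ∧ (hv c t ∈ I ↔ r.s (hv c t) ∈ I')) :
    eI b A I y (relabel r.s x) = eI b (A.image r.cm) I' (r.act y) x := by
  classical
  have hinj : Function.Injective r.cm := by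
    intro u v huv
    rw [← r.cm_cm u, huv, r.cm_cm]
  unfold eI
  rw [Finset.sum_image fun u _ v _ huv => hinj huv]
  refine Finset.sum_congr rfl fun c hc => ?_
  have hσ : ∑ t : HT, bE b I' (r.act y) x (r.cm c) t =
      ∑ t : HT, bE b I' (r.act y) x (r.cm c) (r.tm t) := by
    refine (Equiv.sum_comp (⟨r.tm, r.tm, r.tm_tm, r.tm_tm⟩ : HT ≃ HT)
      (fun t => bE b I' (r.act y) x (r.cm c) t)).symm
  rw [hσ]
  exact Finset.sum_congr rfl fun t _ => bE_refl r b y x c t (h c hc t).1 (h c hc t).2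

theorem eI_congr {b : ℝ} {R : Finset (ℤ × ℤ)} {I I' : Set (ℤ × ℤ)} {y y' : Fld} {x : Ginf}
    (h : ∀ c ∈ R, (∀ d, y c d = y' c d) ∧ ∀ t, (hu c t ∈ I ↔ hu c t ∈ I') ∧
      (hv c t ∈ I ↔ hv c t ∈ I')) :
    eI b R I y x = eI b R I' y' x := by
  refine Finset.sum_congr rfl fun c hc => Finset.sum_congr rfl fun t _ => ?_
  exact bE_congr ((h c hc).1 _) (proj_congr ((h c hc).2 t).1 rfl)
    (proj_congr ((h c hc).2 t).2 rfl)

theorem LC.disj {r : Refl} {A B : Finset (ℤ × ℤ)} (hA : LC r A) (hB : RC r B) : Disjoint A B := by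
  rw [Finset.disjoint_left]
  intro c h1 h2
  exact hB c h2 (false, false) (hA c h1 (false, false))

theorem LC.image {r : Refl} {A : Finset (ℤ × ℤ)} (hA : LC r A) : RC r (A.image r.cm) := by
  classical
  intro c hc t h
  obtain ⟨c', h1, rfl⟩ := Finset.mem_image.1 hc
  have h2 := (r.left3 c' (r.tm t)).1 (by rw [r.tm_tm]; exact h)
  exact h2 (hA c' h1 _)

theorem RC.image {r : Refl} {B : Finset (ℤ × ℤ)} (hB : RC r B) : LC r (B.image r.cm) := by
  classical
  intro c hc t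
  obtain ⟨c', h1, rfl⟩ := Finset.mem_image.1 hc
  have h2 := (r.left3 c' (r.tm t)).2 (hB c' h1 _)
  rwa [r.tm_tm] at h2

/-- Cauchy-Schwarz on the mirror line -/
theorem cs (r : Refl) (hl : ∀ v, r.lam (r.s v) = - r.lam v) (b : ℝ) {A B : Finset (ℤ × ℤ)}
    (hA : LC r A) (hB : RC r B) {I IL IR : Set (ℤ × ℤ)}
    (hL : ∀ v, r.lam v ≤ 0 → (v ∈ I ↔ v ∈ IL)) (hLs : ∀ v, r.s v ∈ IL ↔ v ∈ IL)
    (hR : ∀ v, 0 ≤ r.lam v → (v ∈ I ↔ v ∈ IR)) (hRs : ∀ v, r.s v ∈ IR ↔ v ∈ IR)
    (y yL yR : Fld)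
    (yL1 : ∀ c ∈ A, ∀ d, yL c d = y c d) (yL2 : ∀ c ∈ A.image r.cm, ∀ d, yL c d = r.act y c d)
    (yR1 : ∀ c ∈ B, ∀ d, yR c d = y c d) (yR2 : ∀ c ∈ B.image r.cm, ∀ d, yR c d = r.act y c d) :
    zI b (A ∪ B) I y ^ 2 ≤ zI b (A ∪ A.image r.cm) IL yL * zI b (B ∪ B.image r.cm) IR yR := by
  classical
  have hss : ∀ x : Ginf, relabel r.s (relabel r.s x) = x := by
    intro x
    funext v
    show x (r.s (r.s v)) = x v
    rw [r.s_s]
  have hinj : Function.Injective r.s := by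
    intro u v huv
    rw [← r.s_s u, huv, r.s_s]
  set g : Ginf → ℝ := fun x => Real.exp (eI b A I y x) with hg
  set h : Ginf → ℝ := fun x => Real.exp (eI b B I y (relabel r.s x)) with hh
  have cg : Continuous g := Real.continuous_exp.comp (eI_cont b A I y)
  have ch : Continuous h := Real.continuous_exp.comp ((eI_cont b B I y).comp (relabel_cont _))
  have Lh : IsL r h := by
    intro x x' hx
    simp only [hh]
    congr 1
    refine Finset.sum_congr rfl fun c hc => Finset.sum_congr rfl fun t _ => ?_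
    have h1 := r.left2 c t (hB c hc t)
    refine bE_congr rfl (proj_congr Iff.rfl (hx _ ?_)) (proj_congr Iff.rfl (hx _ ?_))
    · rw [hl]; linarith [h1.1]
    · rw [hl]; linarith [h1.2]
  have key := cs_left r hl cg ch (hA.isL b I y) Lh
  have e0 : ∫ x, g x * h (relabel r.s x) ∂muInf = zI b (A ∪ B) I y := by
    rw [zI_eq]
    congr 1
    ext x
    simp only [hg, hh]
    rw [hss, ← Real.exp_add, eI_union b (hA.disj hB)]
  have e1 : ∫ x, g x * g (relabel r.s x) ∂muInf = zI b (A ∪ A.image r.cm) IL yL := by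
    rw [zI_eq]
    congr 1
    ext x
    simp only [hg]
    rw [← Real.exp_add, eI_union b (hA.disj hA.image)]
    congr 2
    · refine eI_congr fun c hc => ⟨fun d => (yL1 c hc d).symm, fun t => ?_⟩
      have h1 := r.left1 c t (hA c hc t)
      exact ⟨hL _ h1.1, hL _ h1.2⟩
    · rw [eI_refl r b (I' := IL) y x A]
      · exact eI_congr fun c hc => ⟨fun d => (yL2 c hc d).symm, fun t => ⟨Iff.rfl, Iff.rfl⟩⟩
      · intro c hc t
        have h1 := r.left1 c t (hA c hc t)
        exact ⟨(hL _ h1.1).trans (hLs _).symm, (hL _ h1.2).trans (hLs _).symm⟩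
  have e2 : ∫ x, h x * h (relabel r.s x) ∂muInf = zI b (B ∪ B.image r.cm) IR yR := by
    rw [zI_eq]
    congr 1
    ext x
    simp only [hh]
    rw [hss, ← Real.exp_add, eI_union b (hB.image.disj hB).symm, add_comm]
    congr 2
    · refine eI_congr fun c hc => ⟨fun d => (yR1 c hc d).symm, fun t => ?_⟩
      have h1 := r.left2 c t (hB c hc t)
      exact ⟨hR _ h1.1, hR _ h1.2⟩
    · rw [eI_refl r b (I' := IR) y x B]
      · exact eI_congr fun c hc => ⟨fun d => (yR2 c hc d).symm, fun t => ⟨Iff.rfl, Iff.rfl⟩⟩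
      · intro c hc t
        have h1 := r.left2 c t (hB c hc t)
        exact ⟨(hR _ h1.1).trans (hRs _).symm, (hR _ h1.2).trans (hRs _).symm⟩
  rw [e0, e1, e2] at key
  exact key

end Vale.Agent.P159.T1.H931
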