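import Vale.Agent.P159.T1.H931.Glb

/-!
Cauchy-Schwarz for the two sides of an arbitrary mirror line (half-bonds), Gaussian upper bounds
at the lattice level, and the unfolding step.
-/

set_option linter.all false
set_option autoImplicit false

open MeasureTheory Filter Topology
open scoped BigOperators

namespace Vale.Agent.P159.T1.H931

open Vale.Agent.P159 Vale.Agent.P159.UJ Vale.Agent.P159.H950 Vale.Agent.P159.R2.H130

/-- energy of a set of half-bonds -/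
noncomputable def eS (b : ℝ) (S : Finset ((ℤ × ℤ) × HT)) (I : Set (ℤ × ℤ)) (y : Fld)
    (x : Ginf) : ℝ :=
  ∑ p ∈ S, bE b I y x p.1 p.2

/-- all half-bonds of the cells of `R` -/
def hb (R : Finset (ℤ × ℤ)) : Finset ((ℤ × ℤ) × HT) := R ×ˢ Finset.univ

theorem mem_hb {R : Finset (ℤ × ℤ)} {p : (ℤ × ℤ) × HT} : p ∈ hb R ↔ p.1 ∈ R := by
  unfold hb
  rw [Finset.mem_product]
  exact ⟨fun h => h.1, fun h => ⟨h, Finset.mem_univ _⟩⟩

theorem eI_hb (b : ℝ) (R : Finset (ℤ × ℤ)) (I : Set (ℤ × ℤ)) (y : Fld) (x : Ginf) :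
    eI b R I y x = eS b (hb R) I y x := by
  unfold eI eS hb
  rw [Finset.sum_product]

theorem eS_cont (b : ℝ) (S : Finset ((ℤ × ℤ) × HT)) (I : Set (ℤ × ℤ)) (y : Fld) :
    Continuous (fun x : Ginf => eS b S I y x) :=
  continuous_finsetSum _ fun p _ => bE_cont b I y p.1 p.2

theorem eS_congr {b : ℝ} {S : Finset ((ℤ × ℤ) × HT)} {I I' : Set (ℤ × ℤ)} {y y' : Fld}
    {x : Ginf}
    (h : ∀ p ∈ S, y p.1 p.2.1 = y' p.1 p.2.1 ∧ (hu p.1 p.2 ∈ I ↔ hu p.1 p.2 ∈ I') ∧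
      (hv p.1 p.2 ∈ I ↔ hv p.1 p.2 ∈ I')) :
    eS b S I y x = eS b S I' y' x := by
  refine Finset.sum_congr rfl fun p hp => ?_
  exact bE_congr (h p hp).1 (proj_congr (h p hp).2.1 rfl) (proj_congr (h p hp).2.2 rfl)

/-- the mirror image of a half-bond -/
def mir (r : Refl) (p : (ℤ × ℤ) × HT) : (ℤ × ℤ) × HT := (r.cm p.1, r.tm p.2)

theorem mir_mir (r : Refl) (p : (ℤ × ℤ) × HT) : mir r (mir r p) = p := by
  unfold mir
  rw [r.cm_cm, r.tm_tm]

theorem eS_refl (r : Refl) (b : ℝ) {I I' : Set (ℤ × ℤ)} (y : Fld) (x : Ginf)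
    (S : Finset ((ℤ × ℤ) × HT))
    (h : ∀ p ∈ S, (hu p.1 p.2 ∈ I ↔ r.s (hu p.1 p.2) ∈ I') ∧
      (hv p.1 p.2 ∈ I ↔ r.s (hv p.1 p.2) ∈ I')) :
    eS b S I y (relabel r.s x) = eS b (S.image (mir r)) I' (r.act y) x := by
  classical
  unfold eS
  rw [Finset.sum_image fun u _ v _ huv => by rw [← mir_mir r u, huv, mir_mir]]
  exact Finset.sum_congr rfl fun p hp => bE_refl r b y x p.1 p.2 (h p hp).1 (h p hp).2

theorem eS_union (b : ℝ) {S T : Finset ((ℤ × ℤ) × HT)} (h : Disjoint S T) (I : Set (ℤ × ℤ))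
    (y : Fld) (x : Ginf) : eS b (S ∪ T) I y x = eS b S I y x + eS b T I y x := by
  unfold eS
  rw [Finset.sum_union h]

open Classical in
/-- left half-bonds -/
noncomputable def hL (r : Refl) (R : Finset (ℤ × ℤ)) : Finset ((ℤ × ℤ) × HT) :=
  (hb R).filter fun p => r.left p.1 p.2

open Classical in
/-- right half-bonds -/
noncomputable def hR (r : Refl) (R : Finset (ℤ × ℤ)) : Finset ((ℤ × ℤ) × HT) :=
  (hb R).filter fun p => ¬ r.left p.1 p.2

theorem mem_hL {r : Refl} {R : Finset (ℤ × ℤ)} {p : (ℤ × ℤ) × HT} :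
    p ∈ hL r R ↔ p.1 ∈ R ∧ r.left p.1 p.2 := by
  classical
  unfold hL
  rw [Finset.mem_filter, mem_hb]

theorem mem_hR {r : Refl} {R : Finset (ℤ × ℤ)} {p : (ℤ × ℤ) × HT} :
    p ∈ hR r R ↔ p.1 ∈ R ∧ ¬ r.left p.1 p.2 := by
  classical
  unfold hR
  rw [Finset.mem_filter, mem_hb]

theorem hL_union (r : Refl) (R : Finset (ℤ × ℤ)) : hL r R ∪ hR r R = hb R := by
  ext p
  rw [Finset.mem_union, mem_hL, mem_hR, mem_hb]
  tauto

theorem hL_disj (r : Refl) (R R' : Finset (ℤ × ℤ)) : Disjoint (hL r R) (hR r R') := by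
  rw [Finset.disjoint_left]
  intro p h1 h2
  exact (mem_hR.1 h2).2 (mem_hL.1 h1).2

theorem eS_split (r : Refl) (b : ℝ) (R : Finset (ℤ × ℤ)) (I : Set (ℤ × ℤ)) (y : Fld) (x : Ginf) :
    eI b R I y x = eS b (hL r R) I y x + eS b (hR r R) I y x := by
  rw [eI_hb, ← hL_union r R, eS_union b (hL_disj r R R)]

theorem hL_mir (r : Refl) {R : Finset (ℤ × ℤ)} (h : ∀ c, r.cm c ∈ R ↔ c ∈ R) :
    (hL r R).image (mir r) = hR r R := by
  classical
  ext p
  rw [Finset.mem_image, mem_hR]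
  constructor
  · rintro ⟨q, h1, rfl⟩
    rw [mem_hL] at h1
    exact ⟨(h q.1).2 h1.1, fun h2 => (r.left3 q.1 q.2).1 h2 h1.2⟩
  · rintro ⟨h1, h2⟩
    refine ⟨mir r p, mem_hL.2 ⟨(h p.1).2 h1, (r.left3 p.1 p.2).2 h2⟩, mir_mir r p⟩

theorem hR_mir (r : Refl) {R : Finset (ℤ × ℤ)} (h : ∀ c, r.cm c ∈ R ↔ c ∈ R) :
    (hR r R).image (mir r) = hL r R := by
  classical
  ext p
  rw [Finset.mem_image, mem_hL]
  constructor
  · rintro ⟨q, h1, rfl⟩
    rw [mem_hR] at h1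
    exact ⟨(h q.1).2 h1.1, (r.left3 q.1 q.2).2 h1.2⟩
  · rintro ⟨h1, h2⟩
    refine ⟨mir r p, mem_hR.2 ⟨(h p.1).2 h1, fun h3 => ?_⟩, mir_mir r p⟩
    exact (r.left3 p.1 p.2).1 h3 h2

/-- the doubles of the two sides -/
structure Dbl (r : Refl) (R RL RR : Finset (ℤ × ℤ)) (I IL IR : Set (ℤ × ℤ)) : Prop where
  cl : ∀ c t, r.left c t → (c ∈ RL ↔ c ∈ R)
  cls : ∀ c, r.cm c ∈ RL ↔ c ∈ RL
  cr : ∀ c t, ¬ r.left c t → (c ∈ RR ↔ c ∈ R)
  crs : ∀ c, r.cm c ∈ RR ↔ c ∈ RR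
  il : ∀ v, r.lam v ≤ 0 → (v ∈ IL ↔ v ∈ I)
  ils : ∀ v, r.s v ∈ IL ↔ v ∈ IL
  ir : ∀ v, 0 ≤ r.lam v → (v ∈ IR ↔ v ∈ I)
  irs : ∀ v, r.s v ∈ IR ↔ v ∈ IR

/-- Cauchy-Schwarz on an arbitrary mirror line -/
theorem csH {r : Refl} (hl : ∀ v, r.lam (r.s v) = - r.lam v) (b : ℝ)
    {R RL RR : Finset (ℤ × ℤ)} {I IL IR : Set (ℤ × ℤ)} (D : Dbl r R RL RR I IL IR)
    {y yL yR : Fld}
    (yL1 : ∀ c ∈ R, ∀ t, r.left c t → yL c t.1 = y c t.1)
    (yL2 : ∀ c ∈ RL, ∀ d, r.act yL c d = yL c d)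
    (yR1 : ∀ c ∈ R, ∀ t, ¬ r.left c t → yR c t.1 = y c t.1)
    (yR2 : ∀ c ∈ RR, ∀ d, r.act yR c d = yR c d) :
    zI b R I y ^ 2 ≤ zI b RL IL yL * zI b RR IR yR := by
  classical
  have hss : ∀ x : Ginf, relabel r.s (relabel r.s x) = x := by
    intro x
    funext v
    show x (r.s (r.s v)) = x v
    rw [r.s_s]
  set g : Ginf → ℝ := fun x => Real.exp (eS b (hL r R) I y x) with hg
  set h : Ginf → ℝ := fun x => Real.exp (eS b (hR r R) I y (relabel r.s x)) with hh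
  have cg : Continuous g := Real.continuous_exp.comp (eS_cont b _ I y)
  have ch : Continuous h := Real.continuous_exp.comp ((eS_cont b _ I y).comp (relabel_cont _))
  have Lg : IsL r g := by
    intro x x' hx
    simp only [hg]
    congr 1
    refine Finset.sum_congr rfl fun p hp => ?_
    have h1 := r.left1 p.1 p.2 (mem_hL.1 hp).2
    exact bE_congr rfl (proj_congr Iff.rfl (hx _ h1.1)) (proj_congr Iff.rfl (hx _ h1.2))
  have Lh : IsL r h := by
    intro x x' hx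
    simp only [hh]
    congr 1
    refine Finset.sum_congr rfl fun p hp => ?_
    have h1 := r.left2 p.1 p.2 (mem_hR.1 hp).2
    refine bE_congr rfl (proj_congr Iff.rfl (hx _ ?_)) (proj_congr Iff.rfl (hx _ ?_))
    · rw [hl]; linarith [h1.1]
    · rw [hl]; linarith [h1.2]
  have key := cs_left r hl cg ch Lg Lh
  have e0 : ∫ x, g x * h (relabel r.s x) ∂muInf = zI b R I y := by
    rw [zI_eq]
    congr 1
    ext x
    simp only [hg, hh]
    rw [hss, ← Real.exp_add, ← eS_split]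
  -- left and right half-bonds of the doubles
  have sL : hL r RL = hL r R := by
    ext p
    rw [mem_hL, mem_hL]
    exact ⟨fun h1 => ⟨(D.cl _ _ h1.2).1 h1.1, h1.2⟩, fun h1 => ⟨(D.cl _ _ h1.2).2 h1.1, h1.2⟩⟩
  have sR : hR r RR = hR r R := by
    ext p
    rw [mem_hR, mem_hR]
    exact ⟨fun h1 => ⟨(D.cr _ _ h1.2).1 h1.1, h1.2⟩, fun h1 => ⟨(D.cr _ _ h1.2).2 h1.1, h1.2⟩⟩
  have e1 : ∫ x, g x * g (relabel r.s x) ∂muInf = zI b RL IL yL := by
    rw [zI_eq]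
    congr 1
    ext x
    simp only [hg]
    rw [← Real.exp_add, eS_split r b RL]
    congr 2
    · rw [sL]
      refine eS_congr fun p hp => ?_
      have h1 := mem_hL.1 hp
      have h2 := r.left1 p.1 p.2 h1.2
      exact ⟨(yL1 _ h1.1 _ h1.2).symm, (D.il _ h2.1).symm, (D.il _ h2.2).symm⟩
    · rw [eS_refl r b (I' := IL) y x, ← hL_mir r D.cls, sL]
      · refine Finset.sum_congr rfl fun p hp => ?_
        obtain ⟨q, h1, rfl⟩ := Finset.mem_image.1 hp
        rw [← sL, mem_hL] at h1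
        have h1' := h1
        rw [D.cl _ _ h1.2] at h1'
        refine bE_congr ?_ rfl rfl
        have h3 := yL2 (r.cm q.1) ((D.cls q.1).2 h1.1) (r.tm q.2).1
        show r.act y (r.cm q.1) (r.tm q.2).1 = yL (r.cm q.1) (r.tm q.2).1
        rw [← h3]
        unfold Refl.act
        rw [r.cm_cm, r.tm_dm, r.dm_dm, yL1 _ h1'.1 _ h1'.2]
      · intro p hp
        have h1 := mem_hL.1 hp
        have h2 := r.left1 p.1 p.2 h1.2
        exact ⟨(D.il _ h2.1).symm.trans (D.ils _).symm, (D.il _ h2.2).symm.trans (D.ils _).symm⟩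
  have e2 : ∫ x, h x * h (relabel r.s x) ∂muInf = zI b RR IR yR := by
    rw [zI_eq]
    congr 1
    ext x
    simp only [hh]
    rw [hss, ← Real.exp_add, eS_split r b RR]
    congr 2
    · rw [eS_refl r b (I' := IR) y x, ← hR_mir r D.crs, sR]
      · refine Finset.sum_congr rfl fun p hp => ?_
        obtain ⟨q, h1, rfl⟩ := Finset.mem_image.1 hp
        rw [← sR, mem_hR] at h1
        have h1' := h1
        rw [D.cr _ _ h1.2] at h1'
        refine bE_congr ?_ rfl rfl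
        have h3 := yR2 (r.cm q.1) ((D.crs q.1).2 h1.1) (r.tm q.2).1
        show r.act y (r.cm q.1) (r.tm q.2).1 = yR (r.cm q.1) (r.tm q.2).1
        rw [← h3]
        unfold Refl.act
        rw [r.cm_cm, r.tm_dm, r.dm_dm, yR1 _ h1'.1 _ h1'.2]
      · intro p hp
        have h1 := mem_hR.1 hp
        have h2 := r.left2 p.1 p.2 h1.2
        exact ⟨(D.ir _ h2.1).symm.trans (D.irs _).symm, (D.ir _ h2.2).symm.trans (D.irs _).symm⟩
    · rw [sR]
      refine eS_congr fun p hp => ?_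
      have h1 := mem_hR.1 hp
      have h2 := r.left2 p.1 p.2 h1.2
      exact ⟨(yR1 _ h1.1 _ h1.2).symm, (D.ir _ h2.1).symm, (D.ir _ h2.2).symm⟩
  rw [e0, e1, e2] at key
  exact key

/-- the other orientation -/
def op (r : Refl) : Refl where
  s := r.s
  cm := r.cm
  tm := r.tm
  dm := r.dm
  sg := r.sg
  lam v := - r.lam v
  left c t := ¬ r.left c t
  s_s := r.s_s
  cm_cm := r.cm_cm
  tm_tm := r.tm_tm
  tm_dm := r.tm_dm
  dm_dm := r.dm_dm
  sg_or := r.sg_or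
  sg_dm := r.sg_dm
  ends := r.ends
  lam_s v h := r.lam_s v (by linarith)
  left1 c t h := by
    have := r.left2 c t h
    constructor <;> linarith [this.1, this.2]
  left2 c t h := by
    have := r.left1 c t (not_not.1 h)
    constructor <;> linarith [this.1, this.2]
  left3 c t := not_congr (r.left3 c t)

theorem Dbl.op {r : Refl} {R RL RR : Finset (ℤ × ℤ)} {I IL IR : Set (ℤ × ℤ)}
    (D : Dbl r R RL RR I IL IR) : Dbl (op r) R RR RL I IR IL where
  cl c t h := D.cr c t h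
  cls := D.crs
  cr c t h := D.cl c t (not_not.1 h)
  crs := D.cls
  il v h := D.ir v (by have h1 : - r.lam v ≤ 0 := h; linarith)
  ils := D.irs
  ir v h := D.il v (by have h1 : 0 ≤ - r.lam v := h; linarith)
  irs := D.ils

/-- symmetric domain -/
theorem zI_act (r : Refl) (b : ℝ) {R : Finset (ℤ × ℤ)} {I : Set (ℤ × ℤ)}
    (hR : ∀ c, r.cm c ∈ R ↔ c ∈ R) (hI : ∀ v, r.s v ∈ I ↔ v ∈ I) (y : Fld) :
    zI b R I (r.act y) = zI b R I y := by
  classical
  have hinj : Function.Injective r.s := by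
    intro u v huv
    rw [← r.s_s u, huv, r.s_s]
  have h := integral_relabel r.s hinj muInf muInf
    (Real.continuous_exp.comp (eI_cont b R I y))
  rw [zI_eq, zI_eq]
  refine Eq.trans ?_ h
  congr 1
  ext x
  show Real.exp (eI b R I (r.act y) x) = Real.exp (eI b R I y (relabel r.s x))
  rw [eI_refl r b (I' := I) y x R fun c _ t => ⟨(hI _).symm, (hI _).symm⟩]
  congr 2
  ext c
  rw [Finset.mem_image]
  constructor
  · intro h
    exact ⟨r.cm c, (hR c).2 h, r.cm_cm c⟩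
  · rintro ⟨c', h, rfl⟩
    exact (hR c').2 h

theorem sq2_act (r : Refl) (y : Fld) (c : ℤ × ℤ) : sq2 (r.act y) (r.cm c) = sq2 y c := by
  have h : ∀ d, (r.act y (r.cm c) d) ^ 2 = y c (r.dm d) ^ 2 := by
    intro d
    unfold Refl.act
    rw [r.cm_cm, mul_pow]
    rcases r.sg_or d with h | h <;> rw [h] <;> ring
  unfold sq2
  rw [h, h]
  have h1 : r.dm false ≠ r.dm true := by
    intro h2
    have := congrArg r.dm h2
    rw [r.dm_dm, r.dm_dm] at this
    exact absurd this (by decide)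
  rcases h3 : r.dm false with _ | _
  · rcases h4 : r.dm true with _ | _
    · exact absurd (h3.trans h4.symm) h1
    · rfl
  · rcases h4 : r.dm true with _ | _
    · ring
    · exact absurd (h3.trans h4.symm) h1

theorem nR_act (r : Refl) {R : Finset (ℤ × ℤ)} (hR : ∀ c, r.cm c ∈ R ↔ c ∈ R) (y : Fld) :
    nR R (r.act y) = nR R y := by
  classical
  unfold nR
  symm
  refine Finset.sum_nbij (fun c => r.cm c) (fun c hc => (hR c).2 hc) ?_ ?_ ?_
  · intro a _ c _ h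
    have h' : r.cm a = r.cm c := h
    rw [← r.cm_cm a, h', r.cm_cm]
  · intro c hc
    exact ⟨r.cm c, (hR c).2 hc, r.cm_cm c⟩
  · intro c _
    exact (sq2_act r y c).symm

theorem nR_hb (R : Finset (ℤ × ℤ)) (y : Fld) :
    2 * nR R y = ∑ p ∈ hb R, y p.1 p.2.1 ^ 2 := by
  unfold hb nR
  rw [Finset.sum_product, Finset.mul_sum]
  refine Finset.sum_congr rfl fun c _ => ?_
  rw [Fintype.sum_prod_type]
  simp only [Fintype.sum_bool]
  unfold sq2
  ring

/-- the discrete norm of the doubled field -/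
theorem nR_dbl {r : Refl} {R RL RR : Finset (ℤ × ℤ)} {I IL IR : Set (ℤ × ℤ)}
    (D : Dbl r R RL RR I IL IR) {f g : Fld}
    (hf : ∀ c ∈ R, ∀ t, r.left c t → f c t.1 = 0)
    (g1 : ∀ c ∈ R, ∀ t, ¬ r.left c t → g c t.1 = f c t.1)
    (g2 : ∀ c ∈ RR, ∀ d, r.act g c d = g c d) :
    nR RR g = 2 * nR R f := by
  classical
  have sR : hR r RR = hR r R := by
    ext p
    rw [mem_hR, mem_hR]
    exact ⟨fun h1 => ⟨(D.cr _ _ h1.2).1 h1.1, h1.2⟩, fun h1 => ⟨(D.cr _ _ h1.2).2 h1.1, h1.2⟩⟩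
  have e1 : ∑ p ∈ hL r RR, g p.1 p.2.1 ^ 2 = ∑ p ∈ hR r RR, g p.1 p.2.1 ^ 2 := by
    rw [← hR_mir r D.crs, Finset.sum_image fun u _ v _ huv => by
      rw [← mir_mir r u, huv, mir_mir]]
    refine Finset.sum_congr rfl fun p hp => ?_
    have h1 := (mem_hR.1 hp).1
    have h2 := g2 (r.cm p.1) ((D.crs _).2 h1) (r.tm p.2).1
    show g (r.cm p.1) (r.tm p.2).1 ^ 2 = _
    rw [← h2]
    unfold Refl.act
    rw [r.cm_cm, r.tm_dm, r.dm_dm, mul_pow]
    rcases r.sg_or (r.dm p.2.1) with h | h <;> rw [h] <;> ring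
  have e2 : ∑ p ∈ hR r R, g p.1 p.2.1 ^ 2 = ∑ p ∈ hR r R, f p.1 p.2.1 ^ 2 :=
    Finset.sum_congr rfl fun p hp => by rw [g1 _ (mem_hR.1 hp).1 _ (mem_hR.1 hp).2]
  have e3 : ∑ p ∈ hL r R, f p.1 p.2.1 ^ 2 = 0 :=
    Finset.sum_eq_zero fun p hp => by
      rw [hf _ (mem_hL.1 hp).1 _ (mem_hL.1 hp).2]
      ring
  have h1 := nR_hb RR g
  have h2 := nR_hb R f
  rw [← hL_union r, Finset.sum_union (hL_disj r _ _)] at h1 h2
  rw [e1, sR, e2] at h1
  rw [e3, zero_add] at h2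
  linarith

/-- Gaussian upper bound at all real twists, with a constant, at the lattice level -/
def GLN (b Y : ℝ) (R : ℕ → Finset (ℤ × ℤ)) (I : ℕ → Set (ℤ × ℤ)) (f : SF) : Prop :=
  ∃ C : ℝ, ∀ t : ℝ, ∀ᶠ N : ℕ in atTop, zI b (R N) (I N) ((t / N) • f N) ≤
    Real.exp (C - Y * t ^ 2 * nR (R N) (f N) / (2 * (N : ℝ) ^ 2)) * zI b (R N) (I N) 0

/-- the Gaussian bound gives the lower bound for the quadratic form -/
theorem GLN.q {b Y : ℝ} (hb : 0 ≤ b) {R : ℕ → Finset (ℤ × ℤ)} {I : ℕ → Set (ℤ × ℤ)} {f : SF}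
    (h : GLN b Y R I f) {ε : ℝ} (hε : 0 < ε) :
    ∀ᶠ N : ℕ in atTop, Y * (nR (R N) (f N) / (N : ℝ) ^ 2) - ε ≤
      qI b (R N) (I N) (f N) / (N : ℝ) ^ 2 := by
  obtain ⟨C, hC⟩ := h
  obtain ⟨t, ht0, ht⟩ : ∃ t : ℝ, 0 < t ∧ 2 * |C| ≤ ε * t ^ 2 := by
    refine ⟨Real.sqrt (2 * |C| / ε + 1), by positivity, ?_⟩
    rw [Real.sq_sqrt (by positivity), mul_add, mul_div_cancel₀ _ hε.ne']
    linarith
  filter_upwards [hC t, eventually_ge_atTop 1] with N h1 hN
  have hNp : (0 : ℝ) < N := by exact_mod_cast hN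
  have h2 := exp_neg_q_le hb (R N) (I N) ((t / N) • f N)
  rw [qI_smul] at h2
  have h0 := zI_pos b (R N) (I N) 0
  have h3 := le_of_mul_le_mul_right (h2.trans h1) h0
  rw [Real.exp_le_exp] at h3
  have h4 : (t / N) ^ 2 * qI b (R N) (I N) (f N) =
      t ^ 2 * (qI b (R N) (I N) (f N) / (N : ℝ) ^ 2) := by
    rw [div_pow]
    ring
  have h4' : Y * t ^ 2 * nR (R N) (f N) / (2 * (N : ℝ) ^ 2) =
      t ^ 2 * (Y * (nR (R N) (f N) / (N : ℝ) ^ 2)) / 2 := by
    field_simp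
  rw [h4, h4'] at h3
  have h5 := le_abs_self C
  have ht2 : 0 < t ^ 2 := by positivity
  by_contra h6
  push Not at h6
  have h7 := mul_lt_mul_of_pos_left h6 ht2
  nlinarith only [h3, h5, ht, h7]

/-- reflected field in a symmetric domain -/
theorem GLN.act {b Y : ℝ} {r : ℕ → Refl} {R : ℕ → Finset (ℤ × ℤ)} {I : ℕ → Set (ℤ × ℤ)}
    (hR : ∀ N c, (r N).cm c ∈ R N ↔ c ∈ R N) (hI : ∀ N v, (r N).s v ∈ I N ↔ v ∈ I N) {f : SF}
    (h : GLN b Y R I f) : GLN b Y R I (fun N => (r N).act (f N)) := by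
  obtain ⟨C, hC⟩ := h
  refine ⟨C, fun t => ?_⟩
  filter_upwards [hC t] with N h1
  have e : (t / N) • (r N).act (f N) = (r N).act ((t / N) • f N) := by
    funext c d
    show (t / N) * ((r N).sg d * f N ((r N).cm c) ((r N).dm d)) =
      (r N).sg d * ((t / N) * f N ((r N).cm c) ((r N).dm d))
    ring
  rw [e, zI_act (r N) b (hR N) (hI N), nR_act (r N) (hR N)]
  exact h1

/-- the bound only depends on the field in the region -/
theorem GLN.congr {b Y : ℝ} {R : ℕ → Finset (ℤ × ℤ)} {I : ℕ → Set (ℤ × ℤ)} {f g : SF}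
    (h : GLN b Y R I f) (e : ∀ᶠ N in atTop, ∀ c ∈ R N, ∀ d, g N c d = f N c d) :
    GLN b Y R I g := by
  obtain ⟨C, hC⟩ := h
  refine ⟨C, fun t => ?_⟩
  filter_upwards [hC t, e] with N h1 h2
  have e1 : zI b (R N) (I N) ((t / N) • g N) = zI b (R N) (I N) ((t / N) • f N) :=
    zI_congr_y fun c hc d => by
      show (t / N) * g N c d = (t / N) * f N c d
      rw [h2 c hc d]
  have e2 : nR (R N) (g N) = nR (R N) (f N) :=
    Finset.sum_congr rfl fun c hc => by unfold sq2; rw [h2 c hc, h2 c hc]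
  rw [e1, e2]
  exact h1

theorem GLN.smul {b Y : ℝ} {R : ℕ → Finset (ℤ × ℤ)} {I : ℕ → Set (ℤ × ℤ)} {f : SF}
    (h : GLN b Y R I f) (s : ℝ) : GLN b Y R I (fun N => s • f N) := by
  obtain ⟨C, hC⟩ := h
  refine ⟨C, fun t => ?_⟩
  filter_upwards [hC (t * s)] with N h1
  have e1 : (t / N : ℝ) • s • f N = (t * s / N : ℝ) • f N := by
    rw [smul_smul]
    congr 1
    ring
  have e2 : nR (R N) (s • f N) = s ^ 2 * nR (R N) (f N) := by
    unfold nR
    rw [Finset.mul_sum]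
    refine Finset.sum_congr rfl fun c _ => ?_
    show (s * f N c false) ^ 2 + (s * f N c true) ^ 2 = s ^ 2 * (f N c false ^ 2 + f N c true ^ 2)
    ring
  rw [e1, e2]
  refine h1.trans (le_of_eq ?_)
  congr 2
  ring

/-- unfolding: the field lives on the right side -/
theorem GLN.unfold {b Y : ℝ} {r : ℕ → Refl} (hl : ∀ N v, (r N).lam ((r N).s v) = - (r N).lam v)
    {R RL RR : ℕ → Finset (ℤ × ℤ)} {I IL IR : ℕ → Set (ℤ × ℤ)}
    (D : ∀ N, Dbl (r N) (R N) (RL N) (RR N) (I N) (IL N) (IR N)) {f g : SF}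
    (hf : ∀ N, ∀ c ∈ R N, ∀ t, (r N).left c t → f N c t.1 = 0)
    (g1 : ∀ N, ∀ c ∈ R N, ∀ t, ¬ (r N).left c t → g N c t.1 = f N c t.1)
    (g2 : ∀ N, ∀ c ∈ RR N, ∀ d, (r N).act (g N) c d = g N c d)
    (hg : GLN b Y RR IR g) {C : ℝ}
    (hC : ∀ᶠ N : ℕ in atTop,
      zI b (RL N) (IL N) 0 * zI b (RR N) (IR N) 0 ≤ Real.exp C * zI b (R N) (I N) 0 ^ 2) :
    GLN b Y R I f := by
  classical
  obtain ⟨C1, hC1⟩ := hg
  refine ⟨(C1 + C) / 2, fun t => ?_⟩
  filter_upwards [hC1 t, hC] with N h1 h2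
  have key := csH (hl N) b (D N) (y := (t / N) • f N) (yL := 0) (yR := (t / N) • g N)
    (fun c hc u h => by
      show (0 : ℝ) = (t / N) * f N c u.1
      rw [hf N c hc u h, mul_zero])
    (fun c hc d => by
      show (r N).sg d * (0 : ℝ) = 0
      rw [mul_zero])
    (fun c hc u h => by
      show (t / N) * g N c u.1 = (t / N) * f N c u.1
      rw [g1 N c hc u h])
    (fun c hc d => by
      show (r N).sg d * ((t / N) * g N ((r N).cm c) ((r N).dm d)) = (t / N) * g N c d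
      rw [← g2 N c hc d]
      unfold Refl.act
      ring)
  rw [nR_dbl (D N) (hf N) (g1 N) (g2 N)] at h1
  have p1 := zI_pos b (RL N) (IL N) 0
  have p2 := zI_pos b (R N) (I N) 0
  have p3 := zI_pos b (R N) (I N) ((t / N) • f N)
  obtain ⟨n, hn⟩ : ∃ n, n = nR (R N) (f N) := ⟨_, rfl⟩
  rw [← hn] at h1 ⊢
  have h4 : zI b (R N) (I N) ((t / N) • f N) ^ 2 ≤
      (Real.exp ((C1 + C) / 2 - Y * t ^ 2 * n / (2 * (N : ℝ) ^ 2)) *
        zI b (R N) (I N) 0) ^ 2 := by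
    refine key.trans ((mul_le_mul_of_nonneg_left h1 p1.le).trans ?_)
    calc zI b (RL N) (IL N) 0 *
        (Real.exp (C1 - Y * t ^ 2 * (2 * n) / (2 * (N : ℝ) ^ 2)) * zI b (RR N) (IR N) 0)
        = Real.exp (C1 - Y * t ^ 2 * (2 * n) / (2 * (N : ℝ) ^ 2)) *
          (zI b (RL N) (IL N) 0 * zI b (RR N) (IR N) 0) := by ring
      _ ≤ Real.exp (C1 - Y * t ^ 2 * (2 * n) / (2 * (N : ℝ) ^ 2)) *
          (Real.exp C * zI b (R N) (I N) 0 ^ 2) :=
          mul_le_mul_of_nonneg_left h2 (Real.exp_pos _).le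
      _ = (Real.exp ((C1 + C) / 2 - Y * t ^ 2 * n / (2 * (N : ℝ) ^ 2)) *
            zI b (R N) (I N) 0) ^ 2 := by
          rw [mul_pow, ← mul_assoc, ← Real.exp_add, ← Real.exp_nat_mul]
          congr 2
          push_cast
          ring
  exact (pow_le_pow_iff_left₀ p3.le (by positivity) two_ne_zero).1 h4

/-- wired polyominoes -/
theorem GLN.wired {b : ℝ} (hb : 0 < b) (P : Finset (ℤ × ℤ)) {F : MF} (hF : DF F) :
    GLN b (helicity b) (fun N => PR P N) (fun N => intR (PR P N)) (smp F) := by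
  refine ⟨1, fun t => ?_⟩
  have ht : ApxP P (fun x y d => t * F x y d) (fun N => twR (PR P N) ((t / N) • smp F N)) := by
    intro ε hε
    filter_upwards [eventually_ge_atTop 1] with N hN e
    have hN0 : (N : ℝ) ≠ 0 := by
      have : (0 : ℝ) < N := by exact_mod_cast hN
      exact this.ne'
    have e1 : N * twR (PR P N) ((t / N) • smp F N) e -
        smp (fun x y d => t * F x y d) N e.1 e.2.1 = 0 := by
      show (N : ℝ) * ((t / N) * smp F N e.1 e.2.1) - t * smp F N e.1 e.2.1 = 0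
      field_simp
      ring
    rw [e1, abs_zero]
    exact hε.le
  have h := real_tw_PR hb (hF.smul t) P ht
  rw [enP_smul] at h
  have h2 : Tendsto (fun N : ℕ => Real.exp (1 - helicity b * t ^ 2 *
      nR (PR P N) (smp F N) / (2 * (N : ℝ) ^ 2))) atTop
      (𝓝 (Real.exp (1 - helicity b * t ^ 2 * enP P F / 2))) := by
    refine (Real.continuous_exp.tendsto _).comp ?_
    have h3 := ((nR_PR_lim hF.cont P).const_mul (helicity b * t ^ 2)).div_const 2
    have h4 := h3.const_sub 1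
    refine h4.congr fun N => ?_
    ring
  have hlt : Real.exp (-(helicity b * (t ^ 2 * enP P F) / 2)) <
      Real.exp (1 - helicity b * t ^ 2 * enP P F / 2) := by
    rw [Real.exp_lt_exp]
    nlinarith only []
  filter_upwards [h.eventually_lt h2 hlt] with N h1
  have h0 := zI_pos b (PR P N) (intR (PR P N)) 0
  have e2 : Zr muInf (fun _ : KR (PR P N) => b / 2) (chiR (PR P N)) 0 =
      zI b (PR P N) (intR (PR P N)) 0 := rfl
  rw [e2, div_lt_iff₀ h0] at h1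
  exact h1.le

end Vale.Agent.P159.T1.H931
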