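import Vale.Agent.P159.T1.H729.Cut
import Vale.Agent.P159.T1.H931.GlbN

/-!
Cauchy-Schwarz for a symmetric region cut beyond the collar.
-/

set_option linter.all false
set_option autoImplicit false

open MeasureTheory Filter Topology
open scoped BigOperators

namespace Vale.Agent.P159.T1.H931

open Vale.Agent.P159 Vale.Agent.P159.UJ Vale.Agent.P159.H950 Vale.Agent.P159.R2.H130

theorem act_act (r : Refl) (y : Fld) : r.act (r.act y) = y := by
  funext c d
  unfold Refl.act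
  rw [r.cm_cm, r.dm_dm, r.sg_dm, ← mul_assoc]
  rcases r.sg_or d with h | h <;> rw [h] <;> ring

theorem act_add (r : Refl) (y z : Fld) : r.act (y + z) = r.act y + r.act z := by
  funext c d
  show r.sg d * (y (r.cm c) (r.dm d) + z (r.cm c) (r.dm d)) =
    r.sg d * y (r.cm c) (r.dm d) + r.sg d * z (r.cm c) (r.dm d)
  ring

theorem dbl_cut {r : Refl} (h : H729.Good r) {w : ℕ} (hw : 2 ≤ w) {E : Finset (ℤ × ℤ)}
    {I : Set (ℤ × ℤ)} (hE : H729.SC r E) (hI : H729.SI r I) :
    Dbl r (H729.cut r w E) E (H729.cut2 r w E) I I I where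
  cl c t h1 := (H729.mem_cut_left h hw ⟨t, h1⟩).symm
  cls := hE
  cr c t h1 := (H729.mem_cut_right h hw ⟨t, h1⟩).symm
  crs := hE.cut2 h w
  il v _ := Iff.rfl
  ils := hI
  ir v _ := Iff.rfl
  irs := hI

/-- Cauchy-Schwarz for the cut region: the field lives on the left cells -/
theorem cs_cut (r : Refl) (h : H729.Good r) {w : ℕ} (hw : 2 ≤ w) {E : Finset (ℤ × ℤ)}
    {I : Set (ℤ × ℤ)} (hE : H729.SC r E) (hI : H729.SI r I) (b : ℝ) {y : Fld}
    (hy : ∀ c, (∃ t, ¬ r.left c t) → ∀ d, y c d = 0) :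
    zI b (H729.cut r w E) I y ^ 2 ≤
      zI b E I (y + r.act y) * zI b (H729.cut2 r w E) I 0 := by
  refine csH h.neg b (dbl_cut h hw hE hI) ?_ ?_ ?_ ?_
  · intro c hc t ht
    have h1 : y (r.cm c) (r.dm t.1) = 0 := by
      refine hy _ ⟨r.tm t, fun h2 => ?_⟩ _
      exact (r.left3 c t).1 h2 ht
    show y c t.1 + r.sg t.1 * y (r.cm c) (r.dm t.1) = y c t.1
    rw [h1, mul_zero, add_zero]
  · intro c hc d
    rw [act_add, act_act, add_comm]
  · intro c hc t ht
    exact (hy c ⟨t, ht⟩ _).symm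
  · intro c hc d
    show r.sg d * (0 : ℝ) = 0
    rw [mul_zero]

end Vale.Agent.P159.T1.H931
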