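import Vale.Agent.P159.T1.H931.Dom
import Vale.Agent.P159.R2.H130.Poly

/-!
Gaussian upper bounds at real twists, the unfolding step, and the quadratic form.
-/

set_option linter.all false
set_option autoImplicit false

open MeasureTheory Filter Topology
open scoped BigOperators

namespace Vale.Agent.P159.T1.H931

open Vale.Agent.P159 Vale.Agent.P159.UJ Vale.Agent.P159.H950 Vale.Agent.P159.R2.H130

/-- Gaussian upper bound at all real twists, with a constant -/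
def GLB (b Y : ℝ) (R : ℕ → Finset (ℤ × ℤ)) (I : ℕ → Set (ℤ × ℤ)) (f : SF) (E : ℝ) : Prop :=
  ∃ C : ℝ, ∀ t : ℝ, ∀ᶠ N : ℕ in atTop, zI b (R N) (I N) ((t / N) • f N) ≤
    Real.exp (C - Y * t ^ 2 * E / 2) * zI b (R N) (I N) 0

theorem zI_congr {b : ℝ} {R : Finset (ℤ × ℤ)} {I I' : Set (ℤ × ℤ)} {y y' : Fld}
    (h : ∀ c ∈ R, (∀ d, y c d = y' c d) ∧ ∀ t, (hu c t ∈ I ↔ hu c t ∈ I') ∧
      (hv c t ∈ I ↔ hv c t ∈ I')) : zI b R I y = zI b R I' y' := by
  rw [zI_eq, zI_eq]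
  congr 1
  ext x
  rw [eI_congr h]

theorem zI_congr_y {b : ℝ} {R : Finset (ℤ × ℤ)} {I : Set (ℤ × ℤ)} {y y' : Fld}
    (h : ∀ c ∈ R, ∀ d, y c d = y' c d) : zI b R I y = zI b R I y' :=
  zI_congr fun c hc => ⟨h c hc, fun _ => ⟨Iff.rfl, Iff.rfl⟩⟩

theorem qI_smul (b : ℝ) (R : Finset (ℤ × ℤ)) (I : Set (ℤ × ℤ)) (s : ℝ) (y : Fld) :
    qI b R I (s • y) = s ^ 2 * qI b R I y := by
  unfold qI
  rw [← Qform_smul]
  rfl

theorem exp_neg_q_le {b : ℝ} (hb : 0 ≤ b) (R : Finset (ℤ × ℤ)) (I : Set (ℤ × ℤ)) (y : Fld) :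
    Real.exp (-(qI b R I y) / 2) * zI b R I 0 ≤ zI b R I y := by
  have h := lowerZ muInf (fun _ : KR R => b / 2) (chiI R I) G_div2 (half_nonneg' hb R) (twR R y)
  rw [QQ_zero] at h
  have h0 := zI_pos b R I 0
  have e : Zr muInf (fun _ : KR R => b / 2) (chiI R I) 0 = zI b R I 0 := rfl
  rw [e, le_div_iff₀ h0] at h
  exact h

/-- the Gaussian bound gives the lower bound for the quadratic form -/
theorem GLB.q {b Y : ℝ} (hb : 0 ≤ b) {R : ℕ → Finset (ℤ × ℤ)} {I : ℕ → Set (ℤ × ℤ)} {f : SF}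
    {E : ℝ} (h : GLB b Y R I f E) {ε : ℝ} (hε : 0 < ε) :
    ∀ᶠ N : ℕ in atTop, Y * E - ε ≤ qI b (R N) (I N) (f N) / (N : ℝ) ^ 2 := by
  obtain ⟨C, hC⟩ := h
  obtain ⟨t, ht0, ht⟩ : ∃ t : ℝ, 0 < t ∧ 2 * |C| ≤ ε * t ^ 2 := by
    refine ⟨Real.sqrt (2 * |C| / ε + 1), by positivity, ?_⟩
    rw [Real.sq_sqrt (by positivity), mul_add, mul_div_cancel₀ _ hε.ne']
    linarith
  filter_upwards [hC t, eventually_ge_atTop 1] with N h1 hN
  have hNp : (0 : ℝ) < N := by exact_mod_cast hN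
  have h2 := exp_neg_q_le hb (R N) (I N) ((t / N) • f N)
  rw [qI_smul] at h2
  have h0 := zI_pos b (R N) (I N) 0
  have h3 := le_of_mul_le_mul_right (h2.trans h1) h0
  rw [Real.exp_le_exp] at h3
  have h4 : (t / N) ^ 2 * qI b (R N) (I N) (f N) =
      t ^ 2 * (qI b (R N) (I N) (f N) / (N : ℝ) ^ 2) := by
    rw [div_pow]
    ring
  rw [h4] at h3
  have h5 := le_abs_self C
  have ht2 : 0 < t ^ 2 := by positivity
  by_contra h6
  push Not at h6
  have h7 := mul_lt_mul_of_pos_left h6 ht2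
  nlinarith only [h3, h5, ht, h7]

/-- unfolding: the field lives on the right side -/
theorem GLB.unfold {b Y : ℝ} {r : ℕ → Refl} (hl : ∀ N v, (r N).lam ((r N).s v) = - (r N).lam v)
    {A B : ℕ → Finset (ℤ × ℤ)} (hA : ∀ N, LC (r N) (A N)) (hB : ∀ N, RC (r N) (B N))
    {I IL IR : ℕ → Set (ℤ × ℤ)}
    (hL : ∀ N v, (r N).lam v ≤ 0 → (v ∈ I N ↔ v ∈ IL N))
    (hLs : ∀ N v, (r N).s v ∈ IL N ↔ v ∈ IL N)
    (hR : ∀ N v, 0 ≤ (r N).lam v → (v ∈ I N ↔ v ∈ IR N))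
    (hRs : ∀ N v, (r N).s v ∈ IR N ↔ v ∈ IR N)
    {f g : SF} (hf : ∀ N, ∀ c ∈ A N, ∀ d, f N c d = 0)
    (g1 : ∀ N, ∀ c ∈ B N, ∀ d, g N c d = f N c d)
    (g2 : ∀ N, ∀ c ∈ (B N).image (r N).cm, ∀ d, g N c d = (r N).act (f N) c d)
    {E : ℝ} (hE : GLB b Y (fun N => B N ∪ (B N).image (r N).cm) IR g (2 * E))
    {C : ℝ} (hC : ∀ᶠ N : ℕ in atTop,
      zI b (A N ∪ (A N).image (r N).cm) (IL N) 0 * zI b (B N ∪ (B N).image (r N).cm) (IR N) 0 ≤
      Real.exp C * zI b (A N ∪ B N) (I N) 0 ^ 2) :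
    GLB b Y (fun N => A N ∪ B N) I f E := by
  classical
  obtain ⟨C1, hC1⟩ := hE
  refine ⟨(C1 + C) / 2, fun t => ?_⟩
  filter_upwards [hC1 t, hC] with N h1 h2
  have key := cs (r N) (hl N) b (hA N) (hB N) (hL N) (hLs N) (hR N) (hRs N) ((t / N) • f N) 0
    ((t / N) • g N)
    (fun c hc d => by
      show (0 : ℝ) = (t / N) * f N c d
      rw [hf N c hc d, mul_zero])
    (fun c hc d => by
      obtain ⟨c', h3, rfl⟩ := Finset.mem_image.1 hc
      show (0 : ℝ) = (r N).sg d * ((t / N) * f N ((r N).cm ((r N).cm c')) ((r N).dm d))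
      rw [(r N).cm_cm, hf N c' h3, mul_zero, mul_zero])
    (fun c hc d => by
      show (t / N) * g N c d = (t / N) * f N c d
      rw [g1 N c hc d])
    (fun c hc d => by
      show (t / N) * g N c d = (r N).sg d * ((t / N) * f N ((r N).cm c) ((r N).dm d))
      rw [g2 N c hc d]
      unfold Refl.act
      ring)
  have p1 := zI_pos b (A N ∪ (A N).image (r N).cm) (IL N) 0
  have p2 := zI_pos b (A N ∪ B N) (I N) 0
  have p3 := zI_pos b (A N ∪ B N) (I N) ((t / N) • f N)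
  have h4 : zI b (A N ∪ B N) (I N) ((t / N) • f N) ^ 2 ≤
      (Real.exp ((C1 + C) / 2 - Y * t ^ 2 * E / 2) * zI b (A N ∪ B N) (I N) 0) ^ 2 := by
    refine key.trans ((mul_le_mul_of_nonneg_left h1 p1.le).trans ?_)
    calc zI b (A N ∪ (A N).image (r N).cm) (IL N) 0 *
        (Real.exp (C1 - Y * t ^ 2 * (2 * E) / 2) *
          zI b (B N ∪ (B N).image (r N).cm) (IR N) 0)
        = Real.exp (C1 - Y * t ^ 2 * (2 * E) / 2) *
          (zI b (A N ∪ (A N).image (r N).cm) (IL N) 0 *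
            zI b (B N ∪ (B N).image (r N).cm) (IR N) 0) := by ring
      _ ≤ Real.exp (C1 - Y * t ^ 2 * (2 * E) / 2) *
          (Real.exp C * zI b (A N ∪ B N) (I N) 0 ^ 2) :=
          mul_le_mul_of_nonneg_left h2 (Real.exp_pos _).le
      _ = (Real.exp ((C1 + C) / 2 - Y * t ^ 2 * E / 2) * zI b (A N ∪ B N) (I N) 0) ^ 2 := by
          rw [mul_pow, ← mul_assoc, ← Real.exp_add, ← Real.exp_nat_mul]
          congr 2
          push_cast
          ring
  exact (pow_le_pow_iff_left₀ p3.le (by positivity) two_ne_zero).1 h4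

/-- wired polyominoes -/
theorem GLB.wired {b : ℝ} (hb : 0 < b) (P : Finset (ℤ × ℤ)) {F : MF} (hF : DF F) :
    GLB b (helicity b) (fun N => PR P N) (fun N => intR (PR P N)) (smp F) (enP P F) := by
  refine ⟨1, fun t => ?_⟩
  have ht : ApxP P (fun x y d => t * F x y d) (fun N => twR (PR P N) ((t / N) • smp F N)) := by
    intro ε hε
    filter_upwards [eventually_ge_atTop 1] with N hN e
    have hN0 : (N : ℝ) ≠ 0 := by
      have : (0 : ℝ) < N := by exact_mod_cast hN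
      exact this.ne'
    have e1 : N * twR (PR P N) ((t / N) • smp F N) e -
        smp (fun x y d => t * F x y d) N e.1 e.2.1 = 0 := by
      show (N : ℝ) * ((t / N) * smp F N e.1 e.2.1) - t * smp F N e.1 e.2.1 = 0
      field_simp
      ring
    rw [e1, abs_zero]
    exact hε.le
  have h := real_tw_PR hb (hF.smul t) P ht
  rw [enP_smul] at h
  have hlt : Real.exp (-(helicity b * (t ^ 2 * enP P F) / 2)) <
      Real.exp (1 - helicity b * t ^ 2 * enP P F / 2) := by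
    rw [Real.exp_lt_exp]
    nlinarith only []
  filter_upwards [h.eventually (gt_mem_nhds hlt)] with N h1
  have h0 := zI_pos b (PR P N) (intR (PR P N)) 0
  have e2 : Zr muInf (fun _ : KR (PR P N) => b / 2) (chiR (PR P N)) 0 =
      zI b (PR P N) (intR (PR P N)) 0 := rfl
  rw [e2, div_lt_iff₀ h0] at h1
  exact h1.le

end Vale.Agent.P159.T1.H931
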